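import Vale.Agent.P180.R2.H259.Schur.Form
import Mathlib.LinearAlgebra.Matrix.SpecialLinearGroup
import Mathlib.GroupTheory.Abelianization.Defs
import Mathlib.GroupTheory.PGroup

set_option linter.all false

/-!
P180: central extensions of the Sylow subgroup of `SL₂(K)` in the defining characteristic.
-/

namespace Vale.Agent.P180.R2.H259.Schur

open Matrix Subgroup
open scoped commutatorElement

variable {K : Type*} [Field K]

/-- the transvections -/
def xm (t : K) : (Matrix.SpecialLinearGroup (Fin 2) K) := ⟨!![1, t; 0, 1], by rw [Matrix.det_fin_two_of]; ring⟩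

/-- the diagonal matrices -/
def hm (s : K) (hs : s ≠ 0) : (Matrix.SpecialLinearGroup (Fin 2) K) := ⟨!![s, 0; 0, s⁻¹], by
  rw [Matrix.det_fin_two_of, mul_inv_cancel₀ hs]; ring⟩

theorem xm_mul (t u : K) : (xm t : (Matrix.SpecialLinearGroup (Fin 2) K)) * xm u = xm (t + u) := by
  apply Subtype.ext
  rw [SpecialLinearGroup.coe_mul]
  change !![1, t; 0, 1] * !![1, u; 0, 1] = !![1, t + u; 0, 1]
  rw [Matrix.mul_fin_two]
  congr 1
  ext i j
  fin_cases i <;> fin_cases j <;> simp [add_comm]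

theorem hm_mul (s : K) (hs : s ≠ 0) (t : K) :
    hm s hs * (xm t : (Matrix.SpecialLinearGroup (Fin 2) K)) = xm (s ^ 2 * t) * hm s hs := by
  apply Subtype.ext
  rw [SpecialLinearGroup.coe_mul, SpecialLinearGroup.coe_mul]
  change !![s, 0; 0, s⁻¹] * !![1, t; 0, 1] = !![1, s ^ 2 * t; 0, 1] * !![s, 0; 0, s⁻¹]
  rw [Matrix.mul_fin_two, Matrix.mul_fin_two]
  ext i j
  fin_cases i <;> fin_cases j <;> simp
  field_simp

variable {E : Type*} [Group E] (π : E →* Matrix.SpecialLinearGroup (Fin 2) K)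
  (hsurj : Function.Surjective π) (hπ : π.ker ≤ center E)

include hπ in
theorem comm_eq_of {a a' b b' : E} (ha : π a = π a') (hb : π b = π b') : ⁅a, b⁆ = ⁅a', b'⁆ := by
  have h1 : ∀ {a a' : E}, π a = π a' → ∃ k ∈ center E, a' = a * k := by
    intro a a' h
    refine ⟨a⁻¹ * a', hπ ?_, by group⟩
    rw [MonoidHom.mem_ker, map_mul, map_inv, h, inv_mul_cancel]
  obtain ⟨k, hk, rfl⟩ := h1 ha
  obtain ⟨l, hl, rfl⟩ := h1 hb
  have hk' := mem_center_iff.mp hk
  have hl' := mem_center_iff.mp hl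
  rw [commutatorElement_def, commutatorElement_def]
  symm
  calc a * k * (b * l) * (a * k)⁻¹ * (b * l)⁻¹ = a * (k * b) * l * k⁻¹ * a⁻¹ * l⁻¹ * b⁻¹ := by group
    _ = a * (b * k) * l * k⁻¹ * a⁻¹ * l⁻¹ * b⁻¹ := by rw [hk' b]
    _ = a * b * (k * l) * k⁻¹ * a⁻¹ * l⁻¹ * b⁻¹ := by group
    _ = a * b * (l * k) * k⁻¹ * a⁻¹ * l⁻¹ * b⁻¹ := by rw [hk' l]
    _ = a * b * (l * a⁻¹) * l⁻¹ * b⁻¹ := by group
    _ = a * b * (a⁻¹ * l) * l⁻¹ * b⁻¹ := by rw [hl' a⁻¹]
    _ = _ := by group

include hsurj hπ in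
/-- the commutator form of the transvections is trivial -/
theorem comm_of_unip [Finite K] (hK : 9 < Nat.card K) {a b : E} {t u : K} (ha : π a = xm t)
    (hb : π b = xm u) : ⁅a, b⁆ = 1 := by
  choose σ hσ using hsurj
  have hmem : ∀ t u : K, ⁅σ (xm t), σ (xm u)⁆ ∈ center E := by
    intro t u
    apply hπ
    rw [MonoidHom.mem_ker, map_commutatorElement, hσ, hσ, commutatorElement_eq_one_iff_mul_comm,
      xm_mul, xm_mul, add_comm]
  letI : CommGroup (center E) :=
    { (inferInstance : Group (center E)) with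
      mul_comm := fun a b => Subtype.ext (mem_center_iff.mp b.2 a) }
  let c : K → K → center E := fun t u => ⟨⁅σ (xm t), σ (xm u)⁆, hmem t u⟩
  have hc : ∀ t u : K, ((c t u : center E) : E) = ⁅σ (xm t), σ (xm u)⁆ := fun t u => rfl
  have hc' : ∀ (t u : K) (a b : E), π a = xm t → π b = xm u → ((c t u : center E) : E) = ⁅a, b⁆ := by
    intro t u a b ha hb
    rw [hc]
    exact comm_eq_of π hπ (by rw [hσ, ha]) (by rw [hσ, hb])
  have key : c t u = 1 := by
    apply form_trivial hK c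
    · intro t t' u
      apply Subtype.ext
      rw [Subgroup.coe_mul]
      have hz := mem_center_iff.mp (hmem t' u)
      rw [hc' (t + t') u (σ (xm t) * σ (xm t')) (σ (xm u)) (by rw [map_mul, hσ, hσ, xm_mul]) (hσ _),
        hc, hc]
      have h1 := hz (σ (xm t))
      rw [commutatorElement_def, commutatorElement_def, commutatorElement_def]
      rw [commutatorElement_def] at h1 hz
      have h2 := hz ((σ (xm t) * σ (xm u) * (σ (xm t))⁻¹ * (σ (xm u))⁻¹))
      calc σ (xm t) * σ (xm t') * σ (xm u) * (σ (xm t) * σ (xm t'))⁻¹ * (σ (xm u))⁻¹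
          = σ (xm t) * (σ (xm t') * σ (xm u) * (σ (xm t'))⁻¹ * (σ (xm u))⁻¹) * σ (xm u) *
            (σ (xm t))⁻¹ * (σ (xm u))⁻¹ := by group
        _ = (σ (xm t') * σ (xm u) * (σ (xm t'))⁻¹ * (σ (xm u))⁻¹) * (σ (xm t) * σ (xm u) *
            (σ (xm t))⁻¹ * (σ (xm u))⁻¹) := by rw [h1]; group
        _ = _ := h2.symm
    · intro t u u'
      apply Subtype.ext
      rw [Subgroup.coe_mul]
      have hz := mem_center_iff.mp (hmem t u')
      rw [hc' t (u + u') (σ (xm t)) (σ (xm u) * σ (xm u')) (hσ _) (by rw [map_mul, hσ, hσ, xm_mul]),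
        hc, hc]
      have h1 := hz (σ (xm u))
      rw [commutatorElement_def, commutatorElement_def, commutatorElement_def]
      rw [commutatorElement_def] at h1
      calc σ (xm t) * (σ (xm u) * σ (xm u')) * (σ (xm t))⁻¹ * (σ (xm u) * σ (xm u'))⁻¹
          = σ (xm t) * σ (xm u) * (σ (xm t))⁻¹ * (σ (xm t) * σ (xm u') * (σ (xm t))⁻¹ *
            (σ (xm u'))⁻¹) * (σ (xm u))⁻¹ := by group
        _ = σ (xm t) * σ (xm u) * (σ (xm t))⁻¹ * (σ (xm u))⁻¹ * (σ (xm u) * (σ (xm t) * σ (xm u') *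
            (σ (xm t))⁻¹ * (σ (xm u'))⁻¹)) * (σ (xm u))⁻¹ := by group
        _ = σ (xm t) * σ (xm u) * (σ (xm t))⁻¹ * (σ (xm u))⁻¹ * ((σ (xm t) * σ (xm u') *
            (σ (xm t))⁻¹ * (σ (xm u'))⁻¹) * σ (xm u)) * (σ (xm u))⁻¹ := by rw [h1]
        _ = _ := by group
    · intro s hs t u
      apply Subtype.ext
      have e : ∀ t : K, π (σ (hm s hs) * σ (xm t) * (σ (hm s hs))⁻¹) = xm (s ^ 2 * t) := by
        intro t
        rw [map_mul, map_mul, map_inv, hσ, hσ, hm_mul, mul_inv_cancel_right]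
      rw [hc' _ _ _ _ (e t) (e u), hc]
      have hz := mem_center_iff.mp (hmem t u) (σ (hm s hs))
      rw [commutatorElement_def] at hz
      rw [commutatorElement_def, commutatorElement_def]
      calc σ (hm s hs) * σ (xm t) * (σ (hm s hs))⁻¹ * (σ (hm s hs) * σ (xm u) * (σ (hm s hs))⁻¹) *
          (σ (hm s hs) * σ (xm t) * (σ (hm s hs))⁻¹)⁻¹ *
          (σ (hm s hs) * σ (xm u) * (σ (hm s hs))⁻¹)⁻¹
          = σ (hm s hs) * (σ (xm t) * σ (xm u) * (σ (xm t))⁻¹ * (σ (xm u))⁻¹) *
            (σ (hm s hs))⁻¹ := by group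
        _ = _ := by rw [hz, mul_inv_cancel_right]
    · intro t
      apply Subtype.ext
      rw [hc, commutatorElement_self]
      rfl
  have := hc' t u a b ha hb
  rw [key] at this
  exact this.symm

/-- a subgroup of characteristic power order fixes a vector: it is conjugate to a group of
transvections -/
theorem exists_conj_unip [Finite K] {r : ℕ} [Fact r.Prime] (hr : (r : K) = 0) {S : Type*} [Group S]
    (hS : IsPGroup r S) (f : S →* (Matrix.SpecialLinearGroup (Fin 2) K)) : ∃ g : (Matrix.SpecialLinearGroup (Fin 2) K), ∀ s, ∃ t, g⁻¹ * f s * g = xm t := by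
  haveI := Fintype.ofFinite K
  letI : MulAction S (Fin 2 → K) :=
    { smul := fun s v => (f s).1.mulVec v
      one_smul := fun v => by
        change (f 1).1.mulVec v = v
        rw [map_one, SpecialLinearGroup.coe_one, one_mulVec]
      mul_smul := fun s s' v => by
        change (f (s * s')).1.mulVec v = (f s).1.mulVec ((f s').1.mulVec v)
        rw [map_mul, SpecialLinearGroup.coe_mul, mulVec_mulVec] }
  have hsmul : ∀ (s : S) (v : Fin 2 → K), s • v = (f s).1.mulVec v := fun _ _ => rfl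
  haveI : CharP K r := by
    have h1 : ringChar K ∣ r := ringChar.dvd hr
    have h2 : ringChar K = r := by
      rcases (Nat.dvd_prime (Fact.out : r.Prime)).mp h1 with h | h
      · exact absurd h (CharP.ringChar_ne_one)
      · exact h
    rw [← h2]
    exact ringChar.charP K
  have hcard : r ∣ Nat.card (Fin 2 → K) := by
    obtain ⟨n, hp, hc⟩ := FiniteField.card K r
    rw [Nat.card_fun, Nat.card_eq_fintype_card, hc]
    simp only [Nat.card_eq_fintype_card, Fintype.card_fin]
    exact Dvd.dvd.pow (dvd_pow_self r n.2.ne') (by norm_num)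
  obtain ⟨v, hv, hv0⟩ : ∃ v : Fin 2 → K, v ∈ MulAction.fixedPoints S (Fin 2 → K) ∧ (0 : Fin 2 → K) ≠ v := by
    apply hS.exists_fixed_point_of_prime_dvd_card_of_fixed_point (Fin 2 → K) hcard
    intro s
    rw [hsmul, mulVec_zero]
  -- a matrix whose first column is `v`
  obtain ⟨g, hg0, hg1⟩ : ∃ g : (Matrix.SpecialLinearGroup (Fin 2) K), g.1 0 0 = v 0 ∧ g.1 1 0 = v 1 := by
    by_cases h0 : v 0 = 0
    · have h1 : v 1 ≠ 0 := by
        intro h1
        apply hv0
        funext i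
        fin_cases i
        · exact h0.symm
        · exact h1.symm
      refine ⟨⟨!![v 0, -(v 1)⁻¹; v 1, 0], ?_⟩, rfl, rfl⟩
      rw [Matrix.det_fin_two_of]
      field_simp
      ring
    · refine ⟨⟨!![v 0, 0; v 1, (v 0)⁻¹], ?_⟩, rfl, rfl⟩
      rw [Matrix.det_fin_two_of]
      field_simp
      ring
  refine ⟨g, fun s => ?_⟩
  have hgv : g.1.mulVec ![1, 0] = v := by
    funext i
    fin_cases i <;> simp [mulVec, dotProduct, Fin.sum_univ_two, hg0, hg1]
  set y : (Matrix.SpecialLinearGroup (Fin 2) K) := g⁻¹ * f s * g with hy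
  have hyv : y.1.mulVec ![1, 0] = ![1, 0] := by
    have h1 : (f s).1.mulVec v = v := hv s
    have h2 : (g⁻¹).1.mulVec v = ![1, 0] := by
      rw [← hgv, mulVec_mulVec, ← SpecialLinearGroup.coe_mul, inv_mul_cancel,
        SpecialLinearGroup.coe_one, one_mulVec]
    rw [hy, SpecialLinearGroup.coe_mul, SpecialLinearGroup.coe_mul, ← mulVec_mulVec, hgv,
      ← mulVec_mulVec, h1, h2]
  have h00 : y.1 0 0 = 1 := by
    have := congrFun hyv 0
    simpa [mulVec, dotProduct, Fin.sum_univ_two] using this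
  have h10 : y.1 1 0 = 0 := by
    have := congrFun hyv 1
    simpa [mulVec, dotProduct, Fin.sum_univ_two] using this
  have h11 : y.1 1 1 = 1 := by
    have := y.2
    rw [Matrix.det_fin_two, h00, h10] at this
    simpa using this
  refine ⟨y.1 0 1, ?_⟩
  apply Subtype.ext
  ext i j
  fin_cases i <;> fin_cases j
  · exact h00
  · rfl
  · exact h10
  · exact h11

end Vale.Agent.P180.R2.H259.Schur
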