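import Vale.Agent.P180.R2.H259.Schur.Eig
import Mathlib.GroupTheory.SpecificGroups.Cyclic

set_option linter.all false

/-!
P180: central extensions of the `ℓ`-subgroups of `SL₂(K)`, `ℓ ≠ char K`.
-/

namespace Vale.Agent.P180.R2.H259.Schur

open Matrix Subgroup
open scoped commutatorElement

variable {K : Type*} [Field K]

theorem Df_add_right {F : Type*} [Field F] (u v w : Fin 2 → F) : Df u (v + w) = Df u v + Df u w := by
  simp [Df]; ring

/-- an element of square one and of order prime to the characteristic -/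
theorem sq_cases {F : Type*} [Field F] [Algebra K F] {h : (Matrix.SpecialLinearGroup (Fin 2) K)} {m : ℕ} (hm : (m : K) ≠ 0)
    (hh : h ^ m = 1) (h2 : h * h = 1) : h = 1 ∨ ∀ v : Fin 2 → F, act h v = -v := by
  by_cases hc : ∀ v : Fin 2 → F, v + act h v = 0
  · right
    intro v
    exact eq_neg_of_add_eq_zero_right (hc v)
  · left
    push Not at hc
    obtain ⟨v, hv⟩ := hc
    refine eq_one_of_fix hm hh hv ?_
    have e : act h (v + act h v) = act h v + act h (act h v) := by
      funext i
      fin_cases i <;> simp [act] <;> ring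
    rw [e, ← act_mul, h2, act_one, add_comm]

variable {S : Type*} [Group S] [Finite S]

/-- the stabiliser of a line is abelian -/
theorem comm_of_stab {F : Type*} [Field F] [Algebra K F] (π : S →* (Matrix.SpecialLinearGroup (Fin 2) K)) (hπ : π.ker ≤ center S)
    (hord : ∀ s, ∃ m : ℕ, (m : K) ≠ 0 ∧ (π s) ^ m = 1) (A : Subgroup S) {v : Fin 2 → F}
    (hv : v ≠ 0) (hA : ∀ a ∈ A, Df v (act (π a) v) = 0) :
    ∀ a ∈ A, ∀ b ∈ A, a * b = b * a := by
  obtain ⟨i, hi⟩ := Function.ne_iff.mp hv
  have hi : v i ≠ 0 := hi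
  have hB : ∀ g : A.map π, act (g : (Matrix.SpecialLinearGroup (Fin 2) K)) v = (act (g : (Matrix.SpecialLinearGroup (Fin 2) K)) v i / v i) • v := by
    rintro ⟨g, a, ha, rfl⟩
    obtain ⟨c, hc⟩ := exists_smul hv (hA a ha)
    have : act (π a) v i = c * v i := by rw [hc]; rfl
    change act (π a) v = (act (π a) v i / v i) • v
    rw [this, mul_div_cancel_right₀ _ hi]
    exact hc
  let f : A.map π →* F :=
    { toFun := fun g => act (g : (Matrix.SpecialLinearGroup (Fin 2) K)) v i / v i
      map_one' := by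
        change act (1 : (Matrix.SpecialLinearGroup (Fin 2) K)) v i / v i = 1
        rw [act_one, div_self hi]
      map_mul' := by
        intro g h
        change act ((g : (Matrix.SpecialLinearGroup (Fin 2) K)) * (h : (Matrix.SpecialLinearGroup (Fin 2) K))) v i / v i =
          (act (g : (Matrix.SpecialLinearGroup (Fin 2) K)) v i / v i) * (act (h : (Matrix.SpecialLinearGroup (Fin 2) K)) v i / v i)
        have e : act ((g : (Matrix.SpecialLinearGroup (Fin 2) K)) * (h : (Matrix.SpecialLinearGroup (Fin 2) K))) v i = (act (h : (Matrix.SpecialLinearGroup (Fin 2) K)) v i / v i) * act (g : (Matrix.SpecialLinearGroup (Fin 2) K)) v i := by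
          rw [act_mul]
          conv_lhs => rw [hB h, act_smul]
          rfl
        rw [e]
        ring }
  have hf : Function.Injective f := by
    intro g h hgh
    have h1 : act (h : (Matrix.SpecialLinearGroup (Fin 2) K)) v = act (g : (Matrix.SpecialLinearGroup (Fin 2) K)) v := by
      rw [hB g, hB h]
      exact congrArg (· • v) hgh.symm
    have h2 : act ((g : (Matrix.SpecialLinearGroup (Fin 2) K))⁻¹ * (h : (Matrix.SpecialLinearGroup (Fin 2) K))) v = v := by
      rw [act_mul, h1, ← act_mul, inv_mul_cancel, act_one]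
    obtain ⟨s, hs⟩ : ∃ s, π s = (g : (Matrix.SpecialLinearGroup (Fin 2) K))⁻¹ * (h : (Matrix.SpecialLinearGroup (Fin 2) K)) := by
      obtain ⟨a, ha, e1⟩ := g.2
      obtain ⟨b, hb, e2⟩ := h.2
      exact ⟨a⁻¹ * b, by rw [map_mul, map_inv, e1, e2]⟩
    obtain ⟨m, hm, hpow⟩ := hord s
    have h3 : (g : (Matrix.SpecialLinearGroup (Fin 2) K))⁻¹ * (h : (Matrix.SpecialLinearGroup (Fin 2) K)) = 1 := eq_one_of_fix hm (by rw [← hs]; exact hpow) hv h2
    exact Subtype.ext (inv_mul_eq_one.mp h3)
  haveI : Finite (A.map π) := by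
    have : Finite A := inferInstance
    exact Finite.of_surjective (π.subgroupMap A) (π.subgroupMap_surjective A)
  haveI hcyc : IsCyclic (A.map π) := isCyclic_of_subgroup_isDomain f hf
  have hker : (π.subgroupMap A).ker ≤ center A := by
    intro x hx
    have h1 : π (x : S) = 1 := congrArg Subtype.val (MonoidHom.mem_ker.mp hx)
    rw [mem_center_iff]
    intro y
    exact Subtype.ext (mem_center_iff.mp (hπ (MonoidHom.mem_ker.mpr h1)) y)
  have h3 := commutative_of_cyclic_center_quotient (π.subgroupMap A) hker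
  intro a ha b hb
  exact congrArg Subtype.val (h3 ⟨a, ha⟩ ⟨b, hb⟩)

/-- the derived subgroup of a group with an abelian subgroup of index two -/
theorem exists_delta {A : Subgroup S} (hA : ∀ a ∈ A, ∀ b ∈ A, a * b = b * a) {Y : S} (hY : Y ∉ A)
    (hidx : ∀ s ∉ A, ∀ t ∉ A, s⁻¹ * t ∈ A) {c : S} (hc : c ∈ commutator S) :
    ∃ a ∈ A, c = Y * a * Y⁻¹ * a⁻¹ := by
  have hconj : ∀ a ∈ A, Y * a * Y⁻¹ ∈ A := by
    intro a ha
    by_contra hb
    have h1 := hidx Y hY _ hb
    have h2 : a * Y⁻¹ ∈ A := by
      have : Y⁻¹ * (Y * a * Y⁻¹) = a * Y⁻¹ := by group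
      rwa [this] at h1
    exact hY (by simpa using A.mul_mem (A.inv_mem h2) ha)
  let D : Subgroup S :=
    { carrier := {c | ∃ a ∈ A, c = Y * a * Y⁻¹ * a⁻¹}
      one_mem' := ⟨1, A.one_mem, by simp⟩
      mul_mem' := by
        rintro _ _ ⟨a, ha, rfl⟩ ⟨b, hb, rfl⟩
        refine ⟨a * b, A.mul_mem ha hb, ?_⟩
        have h1 := hA a⁻¹ (A.inv_mem ha) (Y * b * Y⁻¹ * b⁻¹)
          (A.mul_mem (hconj b hb) (A.inv_mem hb))
        rw [mul_assoc (Y * a * Y⁻¹), h1]
        group
      inv_mem' := by
        rintro _ ⟨a, ha, rfl⟩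
        refine ⟨a⁻¹, A.inv_mem ha, ?_⟩
        have h1 := hA a ha (Y * a⁻¹ * Y⁻¹) (hconj _ (A.inv_mem ha))
        rw [_root_.mul_inv_rev, inv_inv]
        calc a * (Y * a * Y⁻¹)⁻¹ = a * (Y * a⁻¹ * Y⁻¹) := by group
          _ = _ := h1 }
  have hD : commutator S ≤ D := by
    rw [_root_.commutator_def, commutator_le]
    have key : ∀ s, s ∉ A → ∀ t ∈ A, ⁅s, t⁆ ∈ D := by
      intro s hs t ht
      have h1 := hidx Y hY s hs
      refine ⟨t, ht, ?_⟩
      have h2 := hA _ h1 t ht
      rw [commutatorElement_def]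
      have h3 : s = Y * (Y⁻¹ * s) := by group
      calc s * t * s⁻¹ * t⁻¹ = Y * ((Y⁻¹ * s) * t) * (Y⁻¹ * s)⁻¹ * Y⁻¹ * t⁻¹ := by group
        _ = Y * (t * (Y⁻¹ * s)) * (Y⁻¹ * s)⁻¹ * Y⁻¹ * t⁻¹ := by rw [h2]
        _ = _ := by group
    intro s _ t _
    by_cases hs : s ∈ A
    · by_cases ht : t ∈ A
      · refine ⟨1, A.one_mem, ?_⟩
        rw [commutatorElement_def, hA s hs t ht]
        group
      · have := D.inv_mem (key t ht s hs)
        rwa [commutatorElement_inv] at this
    · by_cases ht : t ∈ A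
      · exact key s hs t ht
      · have ha := hidx Y hY s hs
        have hb := hidx Y hY t ht
        set a := Y⁻¹ * s with hadef
        set b := Y⁻¹ * t with hbdef
        have es : s = Y * a := by rw [hadef]; group
        have et : t = Y * b := by rw [hbdef]; group
        have hc' : b * a⁻¹ ∈ A := A.mul_mem hb (A.inv_mem ha)
        have hp := hconj _ hc'
        refine ⟨Y * (b * a⁻¹) * Y⁻¹, hp, ?_⟩
        have h1 := hA a ha _ hp
        have h2 := hA a ha b⁻¹ (A.inv_mem hb)
        rw [commutatorElement_def, es, et]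
        calc Y * a * (Y * b) * (Y * a)⁻¹ * (Y * b)⁻¹
            = Y * (a * (Y * (b * a⁻¹) * Y⁻¹)) * b⁻¹ * Y⁻¹ := by group
          _ = Y * ((Y * (b * a⁻¹) * Y⁻¹) * a) * b⁻¹ * Y⁻¹ := by rw [h1]
          _ = _ := by group
  exact hD hc

/-- **coprime case**: the kernel of a central extension of an `ℓ`-subgroup of `SL₂(K)`, `ℓ`
different from the characteristic, meets the derived subgroup trivially. -/
theorem eq_one_of_commutator {ℓ : ℕ} [Fact ℓ.Prime] (hS : IsPGroup ℓ S) (hℓ : (ℓ : K) ≠ 0)
    (π : S →* (Matrix.SpecialLinearGroup (Fin 2) K)) (hπ : π.ker ≤ center S) {c : S} (hc : c ∈ commutator S) (h1 : π c = 1) :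
    c = 1 := by
  let F := AlgebraicClosure K
  have hord : ∀ s, ∃ m : ℕ, (m : K) ≠ 0 ∧ (π s) ^ m = 1 := by
    intro s
    obtain ⟨n, hn⟩ := hS s
    exact ⟨ℓ ^ n, by push_cast; exact pow_ne_zero _ hℓ, by rw [← map_pow, hn, map_one]⟩
  have triv : (∀ a b : S, a * b = b * a) → c = 1 := by
    intro hcomm
    have : commutator S ≤ ⊥ := by
      rw [_root_.commutator_def, commutator_le]
      intro a _ b _
      rw [mem_bot, commutatorElement_def, hcomm a b]
      group
    exact mem_bot.mp (this hc)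
  have hcen : ∀ g ∈ center (Matrix.SpecialLinearGroup (Fin 2) K), ∀ v : Fin 2 → F, ∃ r : F, (r = 1 ∨ r = -1) ∧ act g v = r • v := by
    intro g hg v
    obtain ⟨r, hr, hg'⟩ := SpecialLinearGroup.mem_center_iff.mp hg
    refine ⟨algebraMap K F r, ?_, ?_⟩
    · have h2 : r ^ 2 = 1 := by simpa using hr
      have h3 : algebraMap K F r * algebraMap K F r = 1 := by rw [← map_mul, ← sq, h2, map_one]
      exact mul_self_eq_one_iff.mp h3
    · funext i
      fin_cases i <;> simp [act, ← hg']
  by_cases htr : ∀ s, π s ∈ center (Matrix.SpecialLinearGroup (Fin 2) K)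
  · apply triv
    have hv : (![1, 0] : Fin 2 → F) ≠ 0 := by
      intro h
      have := congrFun h 0
      simp at this
    have := comm_of_stab π hπ hord ⊤ hv (by
      intro a _
      obtain ⟨r, _, hr⟩ := hcen _ (htr a) ![1, 0]
      rw [hr, Df_smul_right, Df_self, mul_zero])
    intro a b
    exact this a (mem_top a) b (mem_top b)
  push Not at htr
  -- a non-scalar element which commutes with everything modulo scalars
  obtain ⟨x, hx, hxc⟩ : ∃ x : S, π x ∉ center (Matrix.SpecialLinearGroup (Fin 2) K) ∧ ∀ s, ∃ z ∈ center (Matrix.SpecialLinearGroup (Fin 2) K),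
      π x * π s = z * (π s * π x) := by
    let q : S →* (Matrix.SpecialLinearGroup (Fin 2) K) ⧸ center (Matrix.SpecialLinearGroup (Fin 2) K) := (QuotientGroup.mk' _).comp π
    haveI : Finite q.range := Finite.of_surjective q.rangeRestrict q.rangeRestrict_surjective
    haveI : Nontrivial q.range := by
      obtain ⟨s, hs⟩ := htr
      refine ⟨⟨⟨q s, s, rfl⟩, 1, ?_⟩⟩
      intro h
      apply hs
      have h2 : q s = 1 := congrArg Subtype.val h
      exact (QuotientGroup.eq_one_iff _).mp h2
    have hp : IsPGroup ℓ q.range := hS.of_surjective q.rangeRestrict q.rangeRestrict_surjective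
    haveI := hp.center_nontrivial
    obtain ⟨y, hy⟩ := exists_ne (1 : center q.range)
    obtain ⟨⟨_, x, rfl⟩, hyc⟩ := y
    refine ⟨x, ?_, ?_⟩
    · intro hx
      apply hy
      apply Subtype.ext
      apply Subtype.ext
      exact (QuotientGroup.eq_one_iff _).mpr hx
    · intro s
      have h2 := mem_center_iff.mp hyc ⟨q s, s, rfl⟩
      have h3 : q s * q x = q x * q s := congrArg Subtype.val h2
      have h4 : q ((x * s) * (s * x)⁻¹) = 1 := by
        rw [map_mul, map_inv, map_mul, map_mul, h3, mul_inv_cancel]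
      refine ⟨π ((x * s) * (s * x)⁻¹), (QuotientGroup.eq_one_iff _).mp h4, ?_⟩
      rw [map_mul, map_inv, map_mul, map_mul, inv_mul_cancel_right]
  obtain ⟨lam, v, hv, hXv⟩ := exists_eigen (F := F) (π x)
  -- eigenspaces of `X` are lines
  have hline : ∀ (μ : F) (u w : Fin 2 → F), act (π x) u = μ • u → act (π x) w = μ • w →
      Df u w = 0 := by
    intro μ u w hu hw
    by_contra hD
    obtain ⟨a, b, h01, h10⟩ := scalar_of_two _ hu hw hD
    apply hx
    rw [SpecialLinearGroup.mem_center_iff]
    have hab : (π x).1 0 0 = (π x).1 1 1 := (algebraMap K F).injective (by rw [a, b])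
    refine ⟨(π x).1 0 0, ?_, ?_⟩
    · have hd := det_eq (π x)
      rw [h01, zero_mul, sub_zero, ← hab] at hd
      simpa [sq] using hd
    · ext i j
      fin_cases i <;> fin_cases j
      · simp
      · simpa using h01.symm
      · simpa using h10.symm
      · simpa using hab
  have hlam : lam ≠ 0 := by
    rintro rfl
    rw [zero_smul] at hXv
    exact act_ne_zero _ hv hXv
  -- the sign of an element
  have hsign : ∀ s, ∃ ε : F, (ε = 1 ∨ ε = -1) ∧ ∀ (μ : F) (u : Fin 2 → F),
      act (π x) u = μ • u → act (π x) (act (π s) u) = (ε * μ) • act (π s) u := by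
    intro s
    obtain ⟨z, hz, hzs⟩ := hxc s
    obtain ⟨r, hr, hr'⟩ := SpecialLinearGroup.mem_center_iff.mp hz
    have h2 : r ^ 2 = 1 := by simpa using hr
    have h3 : algebraMap K F r * algebraMap K F r = 1 := by rw [← map_mul, ← sq, h2, map_one]
    refine ⟨algebraMap K F r, mul_self_eq_one_iff.mp h3, ?_⟩
    intro μ u hu
    have hzact : ∀ w : Fin 2 → F, act z w = algebraMap K F r • w := by
      intro w
      funext i
      fin_cases i <;> simp [act, ← hr']
    rw [← act_mul, hzs, act_mul, act_mul, hu, act_smul, hzact, smul_smul]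
  let A : Subgroup S :=
    { carrier := {s | Df v (act (π s) v) = 0}
      one_mem' := by
        change Df v (act (π 1) v) = 0
        rw [map_one, act_one, Df_self]
      mul_mem' := by
        intro a b ha hb
        obtain ⟨r, hr⟩ := exists_smul hv ha
        obtain ⟨t, ht⟩ := exists_smul hv hb
        change Df v (act (π (a * b)) v) = 0
        rw [map_mul, act_mul, ht, act_smul, hr, Df_smul_right, Df_smul_right, Df_self, mul_zero,
          mul_zero]
      inv_mem' := by
        intro a ha
        obtain ⟨r, hr⟩ := exists_smul hv ha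
        change Df v (act (π a⁻¹) v) = 0
        have h2 : act (π a)⁻¹ (act (π a) v) = v := by rw [← act_mul, inv_mul_cancel, act_one]
        rw [hr, act_smul] at h2
        have h3 : r ≠ 0 := by
          rintro rfl
          rw [zero_smul] at h2
          exact hv h2.symm
        have h4 : r * Df v (act (π a)⁻¹ v) = 0 := by
          rw [← Df_smul_right, h2, Df_self]
        rw [map_inv]
        exact (mul_eq_zero.mp h4).resolve_left h3 }
  have hmemA : ∀ s, s ∈ A ↔ Df v (act (π s) v) = 0 := fun s => Iff.rfl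
  have hAc : ∀ a ∈ A, ∀ b ∈ A, a * b = b * a := comm_of_stab π hπ hord A hv fun a ha => ha
  have hnot : ∀ s, s ∉ A → act (π x) (act (π s) v) = (-lam) • act (π s) v := by
    intro s hs
    obtain ⟨ε, hε, h2⟩ := hsign s
    have h3 := h2 lam v hXv
    rcases hε with rfl | rfl
    · rw [one_mul] at h3
      exact absurd (hline lam _ _ hXv h3) hs
    · rw [h3]
      congr 1
      ring
  have hidx : ∀ s ∉ A, ∀ t ∉ A, s⁻¹ * t ∈ A := by
    intro s hs t ht
    have h2 := hline _ _ _ (hnot s hs) (hnot t ht)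
    rw [hmemA, map_mul, act_mul, map_inv, ← Df_act (π s), ← act_mul, mul_inv_cancel, act_one]
    exact h2
  by_cases hAtop : ∀ s, s ∈ A
  · exact triv fun a b => hAc a (hAtop a) b (hAtop b)
  push Not at hAtop
  obtain ⟨Y, hY⟩ := hAtop
  have hYY : Y * Y ∈ A := by
    by_contra h2
    have h3 := hidx Y hY _ h2
    rw [inv_mul_cancel_left] at h3
    exact hY h3
  set w := act (π Y) v with hw
  have hD : Df v w ≠ 0 := fun h => hY h
  have hXw := hnot Y hY
  have hw0 : w ≠ 0 := act_ne_zero _ hv
  -- the action of the elements of `A`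
  have hAact : ∀ a ∈ A, ∃ r t : F, act (π a) v = r • v ∧ act (π a) w = t • w ∧ r * t = 1 := by
    intro a ha
    obtain ⟨r, hr⟩ := exists_smul hv ha
    have hr0 : r ≠ 0 := by
      rintro rfl
      rw [zero_smul] at hr
      exact act_ne_zero _ hv hr
    obtain ⟨ε, hε, h2⟩ := hsign a
    have hε1 : ε = 1 := by
      have h3 := h2 lam v hXv
      rw [hr, act_smul, hXv, smul_smul, smul_smul] at h3
      obtain ⟨i, hi⟩ := Function.ne_iff.mp hv
      have hi : v i ≠ 0 := hi
      have h4 := congrFun h3 i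
      simp only [Pi.smul_apply, smul_eq_mul] at h4
      have h5 : (ε - 1) * (lam * r * v i) = 0 := by linear_combination -h4
      exact sub_eq_zero.mp ((mul_eq_zero.mp h5).resolve_right
        (mul_ne_zero (mul_ne_zero hlam hr0) hi))
    have h3 := h2 _ w hXw
    rw [hε1, one_mul] at h3
    obtain ⟨t, ht⟩ := exists_smul hw0 (hline _ _ _ hXw h3)
    refine ⟨r, t, hr, ht, ?_⟩
    have h4 := Df_act (π a) v w
    rw [hr, ht, Df_smul_left, Df_smul_right, ← mul_assoc] at h4
    have h5 : (r * t - 1) * Df v w = 0 := by linear_combination h4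
    exact sub_eq_zero.mp ((mul_eq_zero.mp h5).resolve_right hD)
  have hinv : ∀ a ∈ A, π (Y * a * Y⁻¹) = (π a)⁻¹ := by
    intro a ha
    have hb : Y * a * Y⁻¹ ∈ A := by
      by_contra hb
      have h2 := hidx Y hY _ hb
      have h3 : Y⁻¹ * (Y * a * Y⁻¹) = a * Y⁻¹ := by group
      rw [h3] at h2
      exact hY (by simpa using A.mul_mem (A.inv_mem h2) ha)
    obtain ⟨r, t, hr, ht, hrt⟩ := hAact a ha
    obtain ⟨r', t', hr', ht', hrt'⟩ := hAact _ hb
    have h2 : act (π (Y * a * Y⁻¹)) w = r • w := by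
      rw [hw, map_mul, map_mul, map_inv, ← act_mul, inv_mul_cancel_right, act_mul, hr, act_smul]
    have h3 : t' = r := by
      obtain ⟨i, hi⟩ := Function.ne_iff.mp hw0
      have hi : w i ≠ 0 := hi
      have h4 := congrFun (ht'.symm.trans h2) i
      simp only [Pi.smul_apply, smul_eq_mul] at h4
      exact mul_right_cancel₀ hi h4
    have hr0 : r ≠ 0 := left_ne_zero_of_mul_eq_one hrt
    have ht0 : t ≠ 0 := right_ne_zero_of_mul_eq_one hrt
    refine eq_of_act (v := v) (w := w) ?_ ?_ hD
    · have h5 : act (π a)⁻¹ v = r⁻¹ • v := by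
        apply act_inv_of
        rw [act_smul, hr, smul_smul, inv_mul_cancel₀ hr0, one_smul]
      rw [hr', h5]
      congr 1
      rw [h3] at hrt'
      exact eq_inv_of_mul_eq_one_left hrt'
    · have h5 : act (π a)⁻¹ w = t⁻¹ • w := by
        apply act_inv_of
        rw [act_smul, ht, smul_smul, inv_mul_cancel₀ ht0, one_smul]
      rw [h2, h5]
      congr 1
      exact eq_inv_of_mul_eq_one_left hrt
  -- `Y²` acts as `-1`
  have hY2 : ∀ u : Fin 2 → F, act (π (Y * Y)) u = -u := by
    have h2 : π (Y * Y) * π (Y * Y) = 1 := by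
      have h3 := hinv _ hYY
      have h4 : Y * (Y * Y) * Y⁻¹ = Y * Y := by group
      rw [h4] at h3
      nth_rewrite 1 [h3]
      exact inv_mul_cancel _
    obtain ⟨m, hm, hpow⟩ := hord (Y * Y)
    rcases sq_cases (F := F) hm hpow h2 with h3 | h3
    · exfalso
      rw [map_mul] at h3
      obtain ⟨m', hm', hpow'⟩ := hord Y
      apply hY
      rw [hmemA]
      rcases sq_cases (F := F) hm' hpow' h3 with h4 | h4
      · rw [h4, act_one, Df_self]
      · rw [h4 v]
        have : -v = (-1 : F) • v := by rw [neg_one_smul]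
        rw [this, Df_smul_right, Df_self, mul_zero]
    · exact h3
  obtain ⟨a, ha, rfl⟩ := exists_delta hAc hY hidx hc
  have h2 : π a * π a = 1 := by
    rw [map_mul, hinv a ha, map_inv, ← _root_.mul_inv_rev, inv_eq_one] at h1
    exact h1
  obtain ⟨m, hm, hpow⟩ := hord a
  rcases sq_cases (F := F) hm hpow h2 with h3 | h3
  · have h4 := mem_center_iff.mp (hπ (MonoidHom.mem_ker.mpr h3)) Y
    rw [h4]
    group
  · have h4 : π a = π (Y * Y) := by
      refine eq_of_act (v := v) (w := w) ?_ ?_ hD
      · rw [h3, hY2]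
      · rw [h3, hY2]
    have h5 : π ((Y * Y)⁻¹ * a) = 1 := by rw [map_mul, map_inv, h4, inv_mul_cancel]
    have h6 := mem_center_iff.mp (hπ (MonoidHom.mem_ker.mpr h5)) Y
    have h7 : a = (Y * Y) * ((Y * Y)⁻¹ * a) := by group
    have h8 : Y * a = a * Y := by
      rw [h7, ← mul_assoc Y, mul_assoc (Y * Y) _ Y, ← h6]
      group
    rw [h8]
    group

end Vale.Agent.P180.R2.H259.Schur
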