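import Mathlib.LinearAlgebra.Matrix.SpecialLinearGroup
import Mathlib.LinearAlgebra.Matrix.ToLinearEquiv
import Mathlib.FieldTheory.IsAlgClosed.AlgebraicClosure
import Mathlib.RingTheory.IntegralDomain
import Mathlib.GroupTheory.PGroup

set_option linter.all false

/-!
P180: eigenvectors of the elements of `SL₂(K)` over the algebraic closure.
-/

namespace Vale.Agent.P180.R2.H259.Schur

open Matrix

variable {K : Type*} [Field K]

/-- the action of `SL₂(K)` on the plane over an extension field -/
def act {F : Type*} [Field F] [Algebra K F] (g : (Matrix.SpecialLinearGroup (Fin 2) K)) (v : Fin 2 → F) : Fin 2 → F :=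
  ![algebraMap K F (g.1 0 0) * v 0 + algebraMap K F (g.1 0 1) * v 1,
    algebraMap K F (g.1 1 0) * v 0 + algebraMap K F (g.1 1 1) * v 1]

section

variable {F : Type*} [Field F] [Algebra K F]

theorem act_mul (g h : (Matrix.SpecialLinearGroup (Fin 2) K)) (v : Fin 2 → F) : act (g * h) v = act g (act h v) := by
  have e : ∀ i j, (g * h).1 i j = g.1 i 0 * h.1 0 j + g.1 i 1 * h.1 1 j := by
    intro i j
    rw [SpecialLinearGroup.coe_mul, Matrix.mul_apply, Fin.sum_univ_two]
  funext i
  fin_cases i <;> simp [act, e] <;> ring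

theorem act_one (v : Fin 2 → F) : act (1 : (Matrix.SpecialLinearGroup (Fin 2) K)) v = v := by
  funext i
  fin_cases i <;> simp [act]

theorem act_smul (g : (Matrix.SpecialLinearGroup (Fin 2) K)) (c : F) (v : Fin 2 → F) : act g (c • v) = c • act g v := by
  funext i
  fin_cases i <;> simp [act] <;> ring

theorem act_inv_of (g : (Matrix.SpecialLinearGroup (Fin 2) K)) {v w : Fin 2 → F} (h : act g v = w) : act g⁻¹ w = v := by
  rw [← h, ← act_mul, inv_mul_cancel, act_one]

/-- the area form -/
def Df (v w : Fin 2 → F) : F := v 0 * w 1 - v 1 * w 0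

theorem det_eq (g : (Matrix.SpecialLinearGroup (Fin 2) K)) : g.1 0 0 * g.1 1 1 - g.1 0 1 * g.1 1 0 = 1 := by
  have := g.2
  rwa [Matrix.det_fin_two] at this

theorem det_eq' (g : (Matrix.SpecialLinearGroup (Fin 2) K)) : algebraMap K F (g.1 0 0) * algebraMap K F (g.1 1 1) -
    algebraMap K F (g.1 0 1) * algebraMap K F (g.1 1 0) = 1 := by
  rw [← map_mul, ← map_mul, ← map_sub, det_eq, map_one]

theorem Df_act (g : (Matrix.SpecialLinearGroup (Fin 2) K)) (v w : Fin 2 → F) : Df (act g v) (act g w) = Df v w := by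
  have h := det_eq' (F := F) g
  simp only [Df, act, Matrix.cons_val_zero, Matrix.cons_val_one]
  linear_combination (v 0 * w 1 - v 1 * w 0) * h

theorem Df_self (v : Fin 2 → F) : Df v v = 0 := by simp [Df, mul_comm]

theorem Df_smul_left (c : F) (v w : Fin 2 → F) : Df (c • v) w = c * Df v w := by
  simp [Df]; ring

theorem Df_smul_right (c : F) (v w : Fin 2 → F) : Df v (c • w) = c * Df v w := by
  simp [Df]; ring

theorem exists_smul {v w : Fin 2 → F} (hv : v ≠ 0) (h : Df v w = 0) : ∃ c : F, w = c • v := by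
  by_cases h0 : v 0 = 0
  · have h1 : v 1 ≠ 0 := by
      intro h1
      apply hv
      funext i
      fin_cases i
      · exact h0
      · exact h1
    refine ⟨w 1 / v 1, ?_⟩
    have h2 : v 1 * w 0 = 0 := by
      have := h
      rw [Df, h0, zero_mul, zero_sub, neg_eq_zero] at this
      exact this
    have h3 : w 0 = 0 := (mul_eq_zero.mp h2).resolve_left h1
    funext i
    fin_cases i
    · simp [h0, h3]
    · simp [h1]
  · refine ⟨w 0 / v 0, ?_⟩
    have h2 : v 0 * w 1 = v 1 * w 0 := sub_eq_zero.mp h
    funext i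
    fin_cases i
    · simp [h0]
    · simp only [Fin.mk_one, Pi.smul_apply, smul_eq_mul]
      field_simp
      linear_combination h2

theorem Df_ne_left {v w : Fin 2 → F} (h : Df v w ≠ 0) : v ≠ 0 := by
  rintro rfl
  exact h (by simp [Df])

theorem act_ne_zero (g : (Matrix.SpecialLinearGroup (Fin 2) K)) {v : Fin 2 → F} (hv : v ≠ 0) : act g v ≠ 0 := by
  intro h
  apply hv
  have h1 := act_inv_of g h
  rw [← h1]
  funext i
  fin_cases i <;> simp [act]

/-- an element with two independent eigenvectors for the same eigenvalue is scalar -/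
theorem scalar_of_two (g : (Matrix.SpecialLinearGroup (Fin 2) K)) {v w : Fin 2 → F} {c : F} (hv : act g v = c • v)
    (hw : act g w = c • w) (hD : Df v w ≠ 0) :
    algebraMap K F (g.1 0 0) = c ∧ algebraMap K F (g.1 1 1) = c ∧ g.1 0 1 = 0 ∧ g.1 1 0 = 0 := by
  have v0 := congrFun hv 0
  have v1 := congrFun hv 1
  have w0 := congrFun hw 0
  have w1 := congrFun hw 1
  simp only [act, Matrix.cons_val_zero, Matrix.cons_val_one, Pi.smul_apply, smul_eq_mul] at v0 v1 w0 w1
  have e : Df v w = v 0 * w 1 - v 1 * w 0 := rfl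
  have inj := (algebraMap K F).injective
  refine ⟨?_, ?_, ?_, ?_⟩
  · have : (algebraMap K F (g.1 0 0) - c) * Df v w = 0 := by
      rw [e]; linear_combination (w 1) * v0 - (v 1) * w0
    exact sub_eq_zero.mp ((mul_eq_zero.mp this).resolve_right hD)
  · have : (algebraMap K F (g.1 1 1) - c) * Df v w = 0 := by
      rw [e]; linear_combination (v 0) * w1 - (w 0) * v1
    exact sub_eq_zero.mp ((mul_eq_zero.mp this).resolve_right hD)
  · have : algebraMap K F (g.1 0 1) * Df v w = 0 := by
      rw [e]; linear_combination (v 0) * w0 - (w 0) * v0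
    exact inj (by rw [(mul_eq_zero.mp this).resolve_right hD, map_zero])
  · have : algebraMap K F (g.1 1 0) * Df v w = 0 := by
      rw [e]; linear_combination (w 1) * v1 - (v 1) * w1
    exact inj (by rw [(mul_eq_zero.mp this).resolve_right hD, map_zero])

/-- equality on a basis -/
theorem eq_of_act {g h : (Matrix.SpecialLinearGroup (Fin 2) K)} {v w : Fin 2 → F} (hv : act g v = act h v) (hw : act g w = act h w)
    (hD : Df v w ≠ 0) : g = h := by
  have h1 : act (h⁻¹ * g) v = (1 : F) • v := by rw [act_mul, hv, ← act_mul, inv_mul_cancel,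
    act_one, one_smul]
  have h2 : act (h⁻¹ * g) w = (1 : F) • w := by rw [act_mul, hw, ← act_mul, inv_mul_cancel,
    act_one, one_smul]
  obtain ⟨a, b, c, d⟩ := scalar_of_two _ h1 h2 hD
  have inj := (algebraMap K F).injective
  have a' : (h⁻¹ * g).1 0 0 = 1 := inj (by rw [a, map_one])
  have b' : (h⁻¹ * g).1 1 1 = 1 := inj (by rw [b, map_one])
  have h3 : h⁻¹ * g = 1 := by
    ext i j
    fin_cases i <;> fin_cases j
    · simpa using a'
    · simpa using c
    · simpa using d
    · simpa using b'
  exact (inv_mul_eq_one.mp h3).symm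

/-- `g = λ + N`, `N² = 0` and `g ^ m = 1` with `m ≠ 0` in `K` imply `N = 0` (for `λ = 1`) -/
theorem eq_one_of_fix {g : (Matrix.SpecialLinearGroup (Fin 2) K)} {m : ℕ} (hm : (m : K) ≠ 0) (hg : g ^ m = 1) {v : Fin 2 → F}
    (hv : v ≠ 0) (h : act g v = v) : g = 1 := by
  -- the trace is `2`
  have v0 := congrFun h 0
  have v1 := congrFun h 1
  simp only [act, Matrix.cons_val_zero, Matrix.cons_val_one] at v0 v1
  have hd := det_eq' (F := F) g
  have htr' : ∀ i, (2 - algebraMap K F (g.1 0 0) - algebraMap K F (g.1 1 1)) * v i = 0 := by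
    intro i
    fin_cases i
    · simp only [Fin.zero_eta]
      linear_combination (-v 0) * hd + (algebraMap K F (g.1 1 1) - 1) * v0 -
        algebraMap K F (g.1 0 1) * v1
    · simp only [Fin.mk_one]
      linear_combination (-v 1) * hd + (algebraMap K F (g.1 0 0) - 1) * v1 -
        algebraMap K F (g.1 1 0) * v0
  have htr : g.1 0 0 + g.1 1 1 = 2 := by
    obtain ⟨i, hi⟩ := Function.ne_iff.mp hv
    have h1 := (mul_eq_zero.mp (htr' i)).resolve_right hi
    apply (algebraMap K F).injective
    rw [map_add, map_ofNat]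
    linear_combination -h1
  have hd' := det_eq g
  -- the nilpotent part
  set N : Matrix (Fin 2) (Fin 2) K := g.1 - 1 with hN
  have hNN : N * N = 0 := by
    ext i j
    fin_cases i <;> fin_cases j <;> simp [hN, Matrix.mul_apply, Fin.sum_univ_two]
    · linear_combination (g.1 0 0) * htr - hd'
    · linear_combination (g.1 0 1) * htr
    · linear_combination (g.1 1 0) * htr
    · linear_combination (g.1 1 1) * htr - hd'
  have hpow : ∀ n : ℕ, g.1 ^ n = 1 + (n : K) • N := by
    intro n
    induction n with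
    | zero => simp
    | succ n ih =>
      rw [pow_succ, ih]
      have : g.1 = 1 + N := by rw [hN]; abel
      rw [this, add_mul, one_mul, mul_add, mul_one, smul_mul_assoc, hNN, smul_zero, add_zero,
        Nat.cast_succ, add_smul, one_smul]
      abel
  have h2 : g.1 ^ m = 1 := by
    have := congrArg Subtype.val hg
    rwa [SpecialLinearGroup.coe_pow, SpecialLinearGroup.coe_one] at this
  rw [hpow m] at h2
  have h3 : (m : K) • N = 0 := by
    have := congrArg (fun x => x - 1) h2
    simpa using this
  have h4 : N = 0 := (smul_eq_zero.mp h3).resolve_left hm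
  apply Subtype.ext
  rw [SpecialLinearGroup.coe_one]
  exact sub_eq_zero.mp h4

end

/-- eigenvectors exist over an algebraically closed field -/
theorem exists_eigen {F : Type*} [Field F] [Algebra K F] [IsAlgClosed F] (g : (Matrix.SpecialLinearGroup (Fin 2) K)) :
    ∃ (c : F) (v : Fin 2 → F), v ≠ 0 ∧ act g v = c • v := by
  let M : Matrix (Fin 2) (Fin 2) F := g.1.map (algebraMap K F)
  obtain ⟨c, hc⟩ : ∃ c : F, (M - Matrix.scalar (Fin 2) c).det = 0 := by
    obtain ⟨c, hc⟩ := IsAlgClosed.exists_root M.charpoly (by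
      rw [Matrix.charpoly_degree_eq_dim]; simp)
    refine ⟨c, ?_⟩
    have h1 : (Matrix.scalar (Fin 2) c - M).det = 0 := by
      rw [← Matrix.eval_charpoly]
      exact hc
    rw [Matrix.det_fin_two] at h1 ⊢
    simp only [Matrix.sub_apply] at h1 ⊢
    linear_combination h1
  obtain ⟨v, hv, hv0⟩ := Matrix.exists_mulVec_eq_zero_iff.mpr hc
  refine ⟨c, v, hv, ?_⟩
  have h0 := congrFun hv0 0
  have h1 := congrFun hv0 1
  simp [Matrix.mulVec, dotProduct, Fin.sum_univ_two, M] at h0 h1
  funext i
  fin_cases i
  · change algebraMap K F (g.1 0 0) * v 0 + algebraMap K F (g.1 0 1) * v 1 = c * v 0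
    linear_combination h0
  · change algebraMap K F (g.1 1 0) * v 0 + algebraMap K F (g.1 1 1) * v 1 = c * v 1
    linear_combination h1

end Vale.Agent.P180.R2.H259.Schur
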