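import Vale.Agent.P180.R2.H259.Schur.Char
import Vale.Agent.P180.R2.H799.BNQ
import Vale.Agent.P180.H768.Defs

set_option linter.all false

/-!
P180: `PSL₂(K)` is of local characteristic `p` if `K` has characteristic `p`.
-/

namespace Vale.Agent.P180.R2.H259.Schur

open Matrix Subgroup

variable {K : Type*} [Field K]

/-- the group of transvections -/
def xh (K : Type*) [Field K] : Multiplicative K →* Matrix.SpecialLinearGroup (Fin 2) K where
  toFun t := xm t.toAdd
  map_one' := by
    apply Subtype.ext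
    ext i j
    fin_cases i <;> fin_cases j <;> simp [xm]
  map_mul' t u := (xm_mul _ _).symm

theorem xm_inj {t u : K} (h : (xm t : Matrix.SpecialLinearGroup (Fin 2) K) = xm u) : t = u :=
  congrArg (fun g : Matrix.SpecialLinearGroup (Fin 2) K => g.1 0 1) h

theorem xh_inj : Function.Injective (xh K) := fun t u h => xm_inj (t := t.toAdd) (u := u.toAdd) h

theorem xm_one {t : K} : (xm t : Matrix.SpecialLinearGroup (Fin 2) K) = 1 ↔ t = 0 := by
  have h0 : (xm (0 : K)) = 1 := (xh K).map_one
  rw [← h0]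
  exact ⟨xm_inj, fun h => by rw [h]⟩

/-- the central elements of `SL₂(K)` -/
theorem center_scalar {z : Matrix.SpecialLinearGroup (Fin 2) K}
    (hz : z ∈ center (Matrix.SpecialLinearGroup (Fin 2) K)) :
    ∃ r : K, r ^ 2 = 1 ∧ z.1 0 0 = r ∧ z.1 1 1 = r ∧ z.1 0 1 = 0 ∧ z.1 1 0 = 0 := by
  obtain ⟨r, hr, hz'⟩ := Matrix.SpecialLinearGroup.mem_center_iff.mp hz
  refine ⟨r, by simpa using hr, ?_, ?_, ?_, ?_⟩ <;> simp [← hz']

/-- an element which conjugates a transvection to a central multiple of a transvection is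
triangular -/
theorem triangular {h z : Matrix.SpecialLinearGroup (Fin 2) K} {t t' : K} (ht : t ≠ 0)
    (hz : z ∈ center (Matrix.SpecialLinearGroup (Fin 2) K)) (e : h * xm t = xm t' * z * h) :
    h.1 1 0 = 0 := by
  obtain ⟨r, hr, z00, z11, z01, z10⟩ := center_scalar hz
  have e' : h.1 * (xm t).1 = (xm t').1 * z.1 * h.1 := by
    have := congrArg Subtype.val e
    rwa [Matrix.SpecialLinearGroup.coe_mul, Matrix.SpecialLinearGroup.coe_mul, Matrix.SpecialLinearGroup.coe_mul] at this
  have e10 := congrFun (congrFun e' 1) 0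
  have e11 := congrFun (congrFun e' 1) 1
  simp only [Matrix.mul_apply, Fin.sum_univ_two, xm, z00, z11, z01, z10, Matrix.of_apply,
    Matrix.cons_val', Matrix.cons_val_zero, Matrix.cons_val_one, Matrix.cons_val_fin_one] at e10 e11
  by_contra hc
  have hr1 : r = 1 := by
    have : (r - 1) * h.1 1 0 = 0 := by linear_combination -e10
    exact sub_eq_zero.mp ((mul_eq_zero.mp this).resolve_right hc)
  rw [hr1] at e11
  have : h.1 1 0 * t = 0 := by linear_combination e11
  rcases mul_eq_zero.mp this with h1 | h1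
  · exact hc h1
  · exact ht h1

/-- a triangular matrix normalises the group of transvections -/
theorem conj_xm {h : Matrix.SpecialLinearGroup (Fin 2) K} (hc : h.1 1 0 = 0) (u : K) :
    h * xm u = xm (h.1 0 0 ^ 2 * u) * h := by
  have hd := h.2
  rw [Matrix.det_fin_two, hc, mul_zero, sub_zero] at hd
  apply Subtype.ext
  rw [Matrix.SpecialLinearGroup.coe_mul, Matrix.SpecialLinearGroup.coe_mul]
  ext i j
  fin_cases i <;> fin_cases j
  · simp [Matrix.mul_apply, Fin.sum_univ_two, xm, hc]
  · simp only [Fin.zero_eta, Fin.mk_one, Matrix.mul_apply, Fin.sum_univ_two, xm, Matrix.of_apply,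
      Matrix.cons_val', Matrix.cons_val_zero, Matrix.cons_val_one, Matrix.cons_val_fin_one]
    linear_combination (-(h.1 0 0) * u) * hd
  · simp [Matrix.mul_apply, Fin.sum_univ_two, xm, hc]
  · simp [Matrix.mul_apply, Fin.sum_univ_two, xm, hc]

section

variable [Finite K] {p : ℕ} [Fact p.Prime]

theorem isPGroup_mult (hp : (p : K) = 0) : IsPGroup p (Multiplicative K) := by
  intro t
  refine ⟨1, ?_⟩
  rw [pow_one]
  apply Multiplicative.toAdd.injective
  rw [toAdd_pow, toAdd_one, nsmul_eq_mul, hp, zero_mul]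

variable {T : Type} [Group T] [Finite T] (π : Matrix.SpecialLinearGroup (Fin 2) K →* T)
  (hπ : Function.Surjective π) (hk : π.ker ≤ center (Matrix.SpecialLinearGroup (Fin 2) K))

include hk in
/-- `π` is injective on the conjugates of the group of transvections -/
theorem comp_inj (g : Matrix.SpecialLinearGroup (Fin 2) K) :
    Function.Injective ((π.comp (MulAut.conj g).toMonoidHom).comp (xh K)) := by
  rw [injective_iff_map_eq_one]
  intro t ht
  have h1 : g * xm t.toAdd * g⁻¹ ∈ π.ker := MonoidHom.mem_ker.mpr ht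
  have h2 := hk h1
  have h3 : xm t.toAdd ∈ center (Matrix.SpecialLinearGroup (Fin 2) K) := by
    have h4 := mem_center_iff.mp h2 g
    have h5 : xm t.toAdd = g * xm t.toAdd * g⁻¹ := by
      calc xm t.toAdd = g⁻¹ * (g * xm t.toAdd * g⁻¹ * g) := by group
        _ = g⁻¹ * (g * (g * xm t.toAdd * g⁻¹)) := by rw [h4]
        _ = _ := by group
    rw [h5]
    exact h2
  obtain ⟨r, -, -, -, h01, -⟩ := center_scalar h3
  exact h01

include hπ hk in
/-- **the radical `p`-subgroups of `PSL₂(K)`, `K` of characteristic `p`, have order at least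
`|K|`** -/
theorem card_le_of_radical (hp : (p : K) = 0) (Q : Subgroup T) (hQ : Q ≠ ⊥) (hQp : IsPGroup p Q)
    (hrad : ∀ P : Subgroup T, IsPGroup p P → P ≤ normalizer (Q : Set T) →
      (∀ g ∈ normalizer (Q : Set T), ∀ x ∈ P, g * x * g⁻¹ ∈ P) → P ≤ Q) :
    Nat.card K ≤ Nat.card Q := by
  haveI : Finite (Matrix.SpecialLinearGroup (Fin 2) K) := by
    exact Subtype.finite
  obtain ⟨R, hRp, rfl⟩ := H799.BN.exists_lift (p := p) π hπ hQp
  obtain ⟨g, hg⟩ := exists_conj_unip hp hRp R.subtype
  -- a nontrivial element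
  obtain ⟨s, hs, hs1⟩ : ∃ s ∈ R, s ≠ 1 := by
    by_contra hcon
    push Not at hcon
    apply hQ
    rw [eq_bot_iff]
    rintro _ ⟨s, hs, rfl⟩
    rw [hcon s hs, map_one]
    exact one_mem _
  obtain ⟨t, ht⟩ := hg ⟨s, hs⟩
  have ht : g⁻¹ * s * g = xm t := ht
  have ht0 : t ≠ 0 := by
    rintro rfl
    apply hs1
    have h1 : g⁻¹ * s * g = 1 := ht.trans (xm_one.mpr rfl)
    calc s = g * (g⁻¹ * s * g) * g⁻¹ := by group
      _ = 1 := by rw [h1]; group
  set f := (π.comp (MulAut.conj g).toMonoidHom).comp (xh K) with hf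
  have hfa : ∀ u : Multiplicative K, f u = π (g * xm u.toAdd * g⁻¹) := fun u => rfl
  have hmem : ∀ v : K, π (g * xm v * g⁻¹) ∈ f.range := fun v =>
    ⟨Multiplicative.ofAdd v, hfa (Multiplicative.ofAdd v)⟩
  have hfi : Function.Injective f := comp_inj π hk g
  have hPc : Nat.card f.range = Nat.card K :=
    (Nat.card_congr (MonoidHom.ofInjective hfi).toEquiv).symm.trans
      (Nat.card_congr Multiplicative.toAdd)
  have hPp : IsPGroup p f.range :=
    (isPGroup_mult hp).of_surjective f.rangeRestrict f.rangeRestrict_surjective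
  -- `R` lies in the conjugate group of transvections
  have hRx : ∀ r ∈ R, ∃ u : K, r = g * xm u * g⁻¹ := by
    intro r hr
    obtain ⟨u, hu⟩ := hg ⟨r, hr⟩
    have hu : g⁻¹ * r * g = xm u := hu
    exact ⟨u, by rw [← hu]; group⟩
  have hcomm : ∀ u v : K, (g * xm u * g⁻¹) * (g * xm v * g⁻¹) =
      (g * xm v * g⁻¹) * (g * xm u * g⁻¹) := by
    intro u v
    have h1 : (xm u : Matrix.SpecialLinearGroup (Fin 2) K) * xm v = xm v * xm u := by
      rw [xm_mul, xm_mul, add_comm]
    calc (g * xm u * g⁻¹) * (g * xm v * g⁻¹) = g * (xm u * xm v) * g⁻¹ := by group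
      _ = g * (xm v * xm u) * g⁻¹ := by rw [h1]
      _ = _ := by group
  have hPQ : f.range ≤ R.map π := by
    apply hrad f.range hPp
    · -- `P` centralises `Q`
      rintro _ ⟨u, rfl⟩
      rw [mem_normalizer_iff]
      have hc : ∀ x ∈ R.map π, f u * x * (f u)⁻¹ = x := by
        rintro _ ⟨r, hr, rfl⟩
        obtain ⟨v, rfl⟩ := hRx r hr
        rw [hfa, ← map_mul, hcomm, map_mul, mul_inv_cancel_right]
      intro x
      constructor
      · intro hx
        rw [hc x hx]
        exact hx
      · intro hx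
        have h1 := hc _ hx
        have h2 : f u * x * (f u)⁻¹ = x := by
          calc f u * x * (f u)⁻¹ = (f u)⁻¹ * (f u * (f u * x * (f u)⁻¹) * (f u)⁻¹) * f u := by group
            _ = (f u)⁻¹ * (f u * x * (f u)⁻¹) * f u := by rw [h1]
            _ = x := by group
        rwa [h2] at hx
    · -- `N(Q)` normalises `P`
      intro y hy x hx
      obtain ⟨h, rfl⟩ := hπ y
      obtain ⟨u, rfl⟩ := hx
      have h1 : π h * π s * (π h)⁻¹ ∈ R.map π := (mem_normalizer_iff.mp hy _).mp ⟨s, hs, rfl⟩
      obtain ⟨s', hs', he⟩ := h1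
      obtain ⟨t', rfl⟩ := hRx s' hs'
      set z := (g * xm t' * g⁻¹)⁻¹ * (h * s * h⁻¹) with hzdef
      have hzk : z ∈ π.ker := by
        rw [hzdef, MonoidHom.mem_ker, map_mul, map_inv, he, map_mul, map_mul, map_inv,
          inv_mul_cancel]
      have hzc := hk hzk
      have hz' := mem_center_iff.mp hzc
      have e1 : h * s * h⁻¹ = (g * xm t' * g⁻¹) * z := by rw [hzdef]; group
      have e2 : s = g * xm t * g⁻¹ := by rw [← ht]; group
      have e3 : (g⁻¹ * h * g) * xm t = xm t' * z * (g⁻¹ * h * g) := by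
        have h3 : h * (g * xm t * g⁻¹) = (g * xm t' * g⁻¹) * z * h := by
          rw [← e2, ← e1]; group
        calc (g⁻¹ * h * g) * xm t = g⁻¹ * (h * (g * xm t * g⁻¹)) * g := by group
          _ = g⁻¹ * ((g * xm t' * g⁻¹) * z * h) * g := by rw [h3]
          _ = xm t' * (g⁻¹ * z) * h * g := by group
          _ = xm t' * (z * g⁻¹) * h * g := by rw [hz' g⁻¹]
          _ = _ := by group
      have hc := triangular ht0 hzc e3
      have e4 := conj_xm hc u.toAdd
      have e6 : h * (g * xm u.toAdd * g⁻¹) * h⁻¹ =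
          g * xm ((g⁻¹ * h * g).1 0 0 ^ 2 * u.toAdd) * g⁻¹ := by
        symm
        calc g * xm ((g⁻¹ * h * g).1 0 0 ^ 2 * u.toAdd) * g⁻¹
          = g * (xm ((g⁻¹ * h * g).1 0 0 ^ 2 * u.toAdd) * (g⁻¹ * h * g)) * (g⁻¹ * h * g)⁻¹ *
            g⁻¹ := by group
        _ = g * ((g⁻¹ * h * g) * xm u.toAdd) * (g⁻¹ * h * g)⁻¹ * g⁻¹ := by rw [e4]
        _ = _ := by group
      have e5 : π h * f u * (π h)⁻¹ = π (g * xm ((g⁻¹ * h * g).1 0 0 ^ 2 * u.toAdd) * g⁻¹) := by
        rw [hfa, ← map_mul, ← map_inv, ← map_mul, e6]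
      rw [e5]
      exact hmem _
  rw [← hPc]
  exact Nat.card_le_card_of_injective _ (inclusion_injective hPQ)

include hπ hk in
/-- `PSL₂(K)`, `K` of characteristic `p`, is of local characteristic `p` up to order `n < |K|`, and
its Sylow `p`-subgroups have order greater than `n` -/
theorem lc_of_surj (hp : (p : K) = 0) {n : ℕ} (hn : n < Nat.card K) :
    IsLocalChar p n T ∧ ∀ P : Sylow p T, n < Nat.card P := by
  constructor
  · intro Q hQ hQp hQn hrad
    exact absurd (card_le_of_radical π hπ hk hp Q hQ hQp hrad) (by omega)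
  · intro P
    have hfi : Function.Injective ((π.comp (MulAut.conj 1).toMonoidHom).comp (xh K)) :=
      comp_inj π hk 1
    set f := (π.comp (MulAut.conj 1).toMonoidHom).comp (xh K)
    have hPc : Nat.card f.range = Nat.card K :=
      (Nat.card_congr (MonoidHom.ofInjective hfi).toEquiv).symm.trans
        (Nat.card_congr Multiplicative.toAdd)
    have hPp : IsPGroup p f.range :=
      (isPGroup_mult hp).of_surjective f.rangeRestrict f.rangeRestrict_surjective
    obtain ⟨P', hP'⟩ := hPp.exists_le_sylow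
    have h1 : Nat.card K ≤ Nat.card P' := by
      rw [← hPc]
      exact Nat.card_le_card_of_injective _ (inclusion_injective hP')
    have h2 : Nat.card P = Nat.card P' := Nat.card_congr (P.equiv P').toEquiv
    omega

end

/-- **`PSL₂(K)` is of local characteristic `p`**, `p` the characteristic of `K`. -/
theorem lc_psl2 [Finite K] {p n : ℕ} [Fact p.Prime] (hp : (p : K) = 0) (hn : n < Nat.card K)
    {T : Type} [Group T] [Finite T] (e : T ≃* Matrix.SpecialLinearGroup (Fin 2) K ⧸
      center (Matrix.SpecialLinearGroup (Fin 2) K)) :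
    IsLocalChar p n T ∧ ∀ P : Sylow p T, n < Nat.card P := by
  refine lc_of_surj (e.symm.toMonoidHom.comp (QuotientGroup.mk' _))
    (e.symm.surjective.comp (QuotientGroup.mk'_surjective _)) ?_ hp hn
  intro g hg
  have h1 : e.symm (g : Matrix.SpecialLinearGroup (Fin 2) K ⧸ center _) = 1 :=
    MonoidHom.mem_ker.mp hg
  rw [map_eq_one_iff e.symm e.symm.injective] at h1
  exact (QuotientGroup.eq_one_iff _).mp h1

end Vale.Agent.P180.R2.H259.Schur
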