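import Vale.Agent.P180.R2.H259.Schur.Tr
import Vale.Agent.P180.R2.H259.Schur.Cop
import Vale.Agent.P180.R2.H259.Schur.Char

set_option linter.all false

/-!
P180: `SL₂(K)` has no proper perfect central extension when `9 < |K|`.
-/

namespace Vale.Agent.P180.R2.H259.Schur

open Matrix Subgroup
open scoped commutatorElement

variable {K : Type*} [Field K]

/-- **Theorem B**: a finite perfect central extension of `SL₂(K)`, `9 < |K|`, is trivial. -/
theorem sl2_injective [Finite K] (hK : 9 < Nat.card K) {E : Type*} [Group E] [Finite E]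
    (hperf : commutator E = ⊤) (π : E →* Matrix.SpecialLinearGroup (Fin 2) K)
    (hsurj : Function.Surjective π) (hπ : π.ker ≤ center E) : Function.Injective π := by
  rw [← MonoidHom.ker_eq_bot_iff]
  by_contra hne
  -- an element of prime order in the kernel
  haveI : Nontrivial π.ker := (Subgroup.nontrivial_iff_ne_bot _).mpr hne
  obtain ⟨ℓ, hℓ, hdvd⟩ := Nat.exists_prime_and_dvd (Finite.one_lt_card (α := π.ker)).ne'
  haveI : Fact ℓ.Prime := ⟨hℓ⟩
  obtain ⟨z, hz⟩ := exists_prime_orderOf_dvd_card' ℓ hdvd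
  have hzo : orderOf (z : E) = ℓ := by rw [Subgroup.orderOf_coe, hz]
  have hz1 : (z : E) ≠ 1 := by
    intro h
    rw [h, orderOf_one] at hzo
    exact hℓ.one_lt.ne hzo
  have hzc : (z : E) ∈ center E := hπ z.2
  have hzk : π (z : E) = 1 := MonoidHom.mem_ker.mp z.2
  have hpg : IsPGroup ℓ (zpowers (z : E)) := by
    apply IsPGroup.of_card (n := 1)
    rw [Nat.card_zpowers, hzo, pow_one]
  obtain ⟨S, hS⟩ := hpg.exists_le_sylow
  have hzS : (z : E) ∈ (S : Subgroup E) := hS (mem_zpowers _)
  have hcomm := mem_commutator_of_perfect hperf S hzc hzS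
  by_cases hchar : (ℓ : K) = 0
  · -- the defining characteristic
    obtain ⟨g, hg⟩ := exists_conj_unip hchar S.2 (π.comp (S : Subgroup E).subtype)
    obtain ⟨γ, hγ⟩ := hsurj g
    have h1 : ⁅(S : Subgroup E), (S : Subgroup E)⁆ ≤ ⊥ := by
      rw [commutator_le]
      intro a ha b hb
      rw [mem_bot]
      obtain ⟨t, ht⟩ := hg ⟨a, ha⟩
      obtain ⟨u, hu⟩ := hg ⟨b, hb⟩
      have ht' : π (γ⁻¹ * a * γ) = xm t := by rw [map_mul, map_mul, map_inv, hγ]; exact ht
      have hu' : π (γ⁻¹ * b * γ) = xm u := by rw [map_mul, map_mul, map_inv, hγ]; exact hu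
      have h2 := comm_of_unip π hsurj hπ hK ht' hu'
      have h3 : ⁅γ⁻¹ * a * γ, γ⁻¹ * b * γ⁆ = γ⁻¹ * ⁅a, b⁆ * γ := by
        rw [commutatorElement_def, commutatorElement_def]
        group
      rw [h3] at h2
      have h4 : ⁅a, b⁆ = γ * (γ⁻¹ * ⁅a, b⁆ * γ) * γ⁻¹ := by group
      rw [h4, h2]
      group
    exact hz1 (mem_bot.mp (h1 hcomm))
  · rw [← map_subtype_commutator] at hcomm
    obtain ⟨c, hc, hcz⟩ := hcomm
    have hcz : (c : E) = z := hcz
    have h1 : c = 1 := by
      refine eq_one_of_commutator (ℓ := ℓ) S.2 hchar (π.comp (S : Subgroup E).subtype) ?_ hc ?_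
      · intro s hs
        have h2 : (s : E) ∈ center E := hπ (MonoidHom.mem_ker.mpr (MonoidHom.mem_ker.mp hs))
        rw [mem_center_iff]
        intro t
        exact Subtype.ext (mem_center_iff.mp h2 t)
      · change π (c : E) = 1
        rw [hcz, hzk]
    apply hz1
    rw [← hcz, h1]
    rfl

/-- the fibre product argument: if the finite perfect group `G` has no proper perfect central
extension, then it covers every finite perfect group `L` with `L / Z(L) ≅ G / Z(G)`. -/
theorem exists_surj_of_injective {G L : Type*} [Group G] [Finite G] [Group L] [Finite L]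
    (hG : commutator G = ⊤) (hL : commutator L = ⊤)
    (hinj : ∀ (E : Subgroup (L × G)) (π : E →* G), commutator E = ⊤ →
      Function.Surjective π → π.ker ≤ center E → Function.Injective π)
    (e : L ⧸ center L ≃* G ⧸ center G) :
    ∃ π : G →* L, Function.Surjective π ∧ π.ker ≤ center G := by
  let P : Subgroup (L × G) :=
    MonoidHom.eqLocus ((e.toMonoidHom.comp (QuotientGroup.mk' (center L))).comp (MonoidHom.fst L G))
      ((QuotientGroup.mk' (center G)).comp (MonoidHom.snd L G))
  have hP : ∀ x : L × G, x ∈ P ↔ e (x.1 : L ⧸ center L) = (x.2 : G ⧸ center G) := fun x => Iff.rfl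
  let E : Subgroup (L × G) := ⁅P, P⁆
  have hEP : E ≤ P := by
    rw [commutator_le]
    intro a ha b hb
    rw [commutatorElement_def]
    exact P.mul_mem (P.mul_mem (P.mul_mem ha hb) (P.inv_mem ha)) (P.inv_mem hb)
  have hfst : P.map (MonoidHom.fst L G) = ⊤ := by
    rw [eq_top_iff]
    intro l _
    obtain ⟨g, hg⟩ := QuotientGroup.mk_surjective (e (l : L ⧸ center L))
    exact ⟨(l, g), (hP _).mpr hg.symm, rfl⟩
  have hsnd : P.map (MonoidHom.snd L G) = ⊤ := by
    rw [eq_top_iff]
    intro g _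
    obtain ⟨l, hl⟩ := QuotientGroup.mk_surjective (e.symm (g : G ⧸ center G))
    refine ⟨(l, g), (hP _).mpr ?_, rfl⟩
    change e (l : L ⧸ center L) = _
    have hl : (l : L ⧸ center L) = e.symm (g : G ⧸ center G) := hl
    rw [hl, e.apply_symm_apply]
  have hEfst : E.map (MonoidHom.fst L G) = ⊤ := by
    rw [map_commutator, hfst, ← _root_.commutator_def, hL]
  have hEsnd : E.map (MonoidHom.snd L G) = ⊤ := by
    rw [map_commutator, hsnd, ← _root_.commutator_def, hG]
  -- the kernel of the second projection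
  have hker : ∀ x ∈ P, x.2 = 1 → x ∈ center (L × G) := by
    intro x hx h2
    have h3 := (hP x).mp hx
    rw [h2] at h3
    have h4 : e (x.1 : L ⧸ center L) = 1 := h3
    rw [map_eq_one_iff e e.injective] at h4
    have h5 : x.1 ∈ center L := (QuotientGroup.eq_one_iff _).mp h4
    rw [mem_center_iff]
    rintro ⟨l, g⟩
    apply Prod.ext
    · exact mem_center_iff.mp h5 l
    · change g * x.2 = x.2 * g
      rw [h2, mul_one, one_mul]
  have hEE : ⁅E, E⁆ = E := by
    apply le_antisymm
    · rw [commutator_le]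
      intro a ha b hb
      rw [commutatorElement_def]
      exact E.mul_mem (E.mul_mem (E.mul_mem ha hb) (E.inv_mem ha)) (E.inv_mem hb)
    · change ⁅P, P⁆ ≤ _
      rw [commutator_le]
      have hdec : ∀ a ∈ P, ∃ b ∈ E, ∃ k ∈ center (L × G), a = b * k := by
        intro a ha
        have h1 : a.2 ∈ E.map (MonoidHom.snd L G) := by rw [hEsnd]; exact mem_top _
        obtain ⟨b, hb, hb2⟩ := h1
        have hb2 : b.2 = a.2 := hb2
        refine ⟨b, hb, b⁻¹ * a, hker _ (P.mul_mem (P.inv_mem (hEP hb)) ha) ?_, by group⟩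
        change b.2⁻¹ * a.2 = 1
        rw [hb2, inv_mul_cancel]
      intro a ha b hb
      obtain ⟨a', ha', k, hk, rfl⟩ := hdec a ha
      obtain ⟨b', hb', l, hl, rfl⟩ := hdec b hb
      have hk' := mem_center_iff.mp hk
      have hl' := mem_center_iff.mp hl
      have : ⁅a' * k, b' * l⁆ = ⁅a', b'⁆ := by
        rw [commutatorElement_def, commutatorElement_def]
        calc a' * k * (b' * l) * (a' * k)⁻¹ * (b' * l)⁻¹
            = a' * (k * b') * l * k⁻¹ * a'⁻¹ * l⁻¹ * b'⁻¹ := by group
          _ = a' * (b' * k) * l * k⁻¹ * a'⁻¹ * l⁻¹ * b'⁻¹ := by rw [hk' b']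
          _ = a' * b' * (k * l) * k⁻¹ * a'⁻¹ * l⁻¹ * b'⁻¹ := by group
          _ = a' * b' * (l * k) * k⁻¹ * a'⁻¹ * l⁻¹ * b'⁻¹ := by rw [hk' l]
          _ = a' * b' * (l * a'⁻¹) * l⁻¹ * b'⁻¹ := by group
          _ = a' * b' * (a'⁻¹ * l) * l⁻¹ * b'⁻¹ := by rw [hl' a'⁻¹]
          _ = _ := by group
      rw [this]
      exact commutator_mem_commutator ha' hb'
  have hEperf : commutator E = ⊤ := by
    apply Subgroup.map_injective E.subtype_injective
    rw [map_subtype_commutator, hEE, ← MonoidHom.range_eq_map, E.range_subtype]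
  let π₂ : E →* G := (MonoidHom.snd L G).comp E.subtype
  have h2s : Function.Surjective π₂ := by
    intro g
    have h1 : g ∈ E.map (MonoidHom.snd L G) := by rw [hEsnd]; exact mem_top _
    obtain ⟨b, hb, hb2⟩ := h1
    exact ⟨⟨b, hb⟩, hb2⟩
  have h2i : Function.Injective π₂ := by
    apply hinj E π₂ hEperf h2s
    intro x hx
    have h3 : (x : L × G).2 = 1 := MonoidHom.mem_ker.mp hx
    have h4 := hker x (hEP x.2) h3
    rw [mem_center_iff]
    intro y
    exact Subtype.ext (mem_center_iff.mp h4 y)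
  let ε : E ≃* G := MulEquiv.ofBijective π₂ ⟨h2i, h2s⟩
  have hε : ∀ x : E, ε x = (x : L × G).2 := fun x => rfl
  refine ⟨((MonoidHom.fst L G).comp E.subtype).comp ε.symm.toMonoidHom, ?_, ?_⟩
  · intro l
    have h1 : l ∈ E.map (MonoidHom.fst L G) := by rw [hEfst]; exact mem_top _
    obtain ⟨b, hb, hb2⟩ := h1
    refine ⟨ε ⟨b, hb⟩, ?_⟩
    change ((ε.symm (ε ⟨b, hb⟩) : E) : L × G).1 = l
    rw [ε.symm_apply_apply]
    exact hb2
  · intro g hg
    have h1 : ((ε.symm g : E) : L × G).1 = 1 := MonoidHom.mem_ker.mp hg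
    have h2 : ((ε.symm g : E) : L × G).2 = g := by rw [← hε, ε.apply_symm_apply]
    have h3 := (hP _).mp (hEP (ε.symm g).2)
    rw [h1, h2] at h3
    have h4 : e ((1 : L) : L ⧸ center L) = 1 := map_one e
    rw [h4] at h3
    exact (QuotientGroup.eq_one_iff _).mp h3.symm

/-- `SL₂(K)` is perfect for `3 < |K|` -/
theorem sl2_perfect [Finite K] (hK : 3 < Nat.card K) :
    commutator (Matrix.SpecialLinearGroup (Fin 2) K) = ⊤ := by
  classical
  haveI := Fintype.ofFinite K
  rw [Nat.card_eq_fintype_card] at hK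
  obtain ⟨a, ha⟩ : ∃ a : K, a ∉ ({0, 1, -1} : Finset K) := by
    by_contra hc
    push Not at hc
    have h1 : (Finset.univ : Finset K) ⊆ {0, 1, -1} := fun x _ => hc x
    have h2 := Finset.card_le_card h1
    have h3 : ({0, 1, -1} : Finset K).card ≤ 3 := Finset.card_le_three
    rw [Finset.card_univ] at h2
    omega
  simp only [Finset.mem_insert, Finset.mem_singleton, not_or] at ha
  refine Matrix.SL2.commutator_eq_top (a := a) ha.1 ?_
  intro h
  rw [sq] at h
  rcases mul_self_eq_one_iff.mp h with h | h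
  · exact ha.2.1 h
  · exact ha.2.2 h

/-- **SCHUR for `PSL₂(K)`**: a finite perfect group `L` with `L / Z(L) ≅ PSL₂(K)`, `9 < |K|`, is a
quotient of `SL₂(K)` by a central subgroup. -/
theorem exists_surj_sl2 [Finite K] (hK : 9 < Nat.card K) {L : Type*} [Group L] [Finite L]
    (hL : commutator L = ⊤)
    (e : L ⧸ center L ≃* Matrix.SpecialLinearGroup (Fin 2) K ⧸
      center (Matrix.SpecialLinearGroup (Fin 2) K)) :
    ∃ π : Matrix.SpecialLinearGroup (Fin 2) K →* L, Function.Surjective π ∧
      π.ker ≤ center (Matrix.SpecialLinearGroup (Fin 2) K) := by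
  have hG : commutator (Matrix.SpecialLinearGroup (Fin 2) K) = ⊤ := sl2_perfect (by omega)
  exact exists_surj_of_injective hG hL (fun E π h1 h2 h3 => sl2_injective hK h1 π h2 h3) e

end Vale.Agent.P180.R2.H259.Schur

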