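import Mathlib.GroupTheory.Transfer
import Mathlib.GroupTheory.Sylow
import Mathlib.GroupTheory.Abelianization.Defs

set_option linter.all false

/-!
P180: the transfer into a Sylow subgroup: a central `ℓ`-element of a perfect group lies in the
derived subgroup of every Sylow `ℓ`-subgroup which contains it.
-/

namespace Vale.Agent.P180.R2.H259.Schur

open Subgroup

theorem mem_commutator_of_perfect {E : Type*} [Group E] [Finite E] {ℓ : ℕ} [Fact ℓ.Prime]
    (hperf : commutator E = ⊤) (S : Sylow ℓ E) {z : E} (hz : z ∈ center E)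
    (hzS : z ∈ (S : Subgroup E)) : z ∈ ⁅(S : Subgroup E), (S : Subgroup E)⁆ := by
  have hzc : ∀ g, g * z = z * g := mem_center_iff.mp hz
  have key : ∀ (k : ℕ) (g₀ : E), g₀⁻¹ * z ^ k * g₀ ∈ (S : Subgroup E) →
      g₀⁻¹ * z ^ k * g₀ = z ^ k := by
    intro k g₀ _
    have h1 : g₀ * z ^ k = z ^ k * g₀ := (Commute.pow_right (hzc g₀) k)
    rw [mul_assoc, ← h1, inv_mul_cancel_left]
  have h1 := MonoidHom.transfer_eq_pow (Abelianization.of (G := (S : Subgroup E))) z key
  have h2 : commutator E ≤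
      (MonoidHom.transfer (Abelianization.of (G := (S : Subgroup E)))).ker := by
    rw [commutator_def, commutator_le]
    intro x _ y _
    rw [MonoidHom.mem_ker, commutatorElement_def, map_mul, map_mul, map_mul, map_inv, map_inv,
      mul_comm (MonoidHom.transfer _ x), mul_inv_cancel_right, mul_inv_cancel]
  have h3 : MonoidHom.transfer (Abelianization.of (G := (S : Subgroup E))) z = 1 := by
    have : z ∈ commutator E := by rw [hperf]; exact mem_top z
    exact MonoidHom.mem_ker.mp (h2 this)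
  rw [h1] at h3
  have h4 : (⟨z ^ (S : Subgroup E).index, MonoidHom.transfer_eq_pow_aux z key⟩ :
      (S : Subgroup E)) ∈ commutator (S : Subgroup E) := by
    rw [← Abelianization.ker_of, MonoidHom.mem_ker]
    exact h3
  have h5 : z ^ (S : Subgroup E).index ∈ ⁅(S : Subgroup E), (S : Subgroup E)⁆ := by
    rw [← map_subtype_commutator]
    exact ⟨_, h4, rfl⟩
  obtain ⟨n, hn⟩ := S.2 ⟨z, hzS⟩
  have hn : z ^ ℓ ^ n = 1 := congrArg Subtype.val hn
  have h6 : Nat.Coprime (ℓ ^ n) (S : Subgroup E).index := by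
    apply Nat.Coprime.pow_left
    rw [(Fact.out : ℓ.Prime).coprime_iff_not_dvd]
    exact S.not_dvd_index
  have h7 : z ^ (Int.gcd (ℓ ^ n : ℕ) ((S : Subgroup E).index : ℤ) : ℤ) ∈
      ⁅(S : Subgroup E), (S : Subgroup E)⁆ := by
    rw [Int.gcd_eq_gcd_ab, zpow_add, zpow_mul, zpow_mul, zpow_natCast, zpow_natCast, hn, one_zpow,
      one_mul]
    exact zpow_mem h5 _
  rw [Int.gcd_natCast_natCast, h6, Nat.cast_one, zpow_one] at h7
  exact h7

end Vale.Agent.P180.R2.H259.Schur
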